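import Mathlib

/-!
# P134: separable monotone solutions of the Allen-Cahn equation are one-dimensional

In every dimension, an entire solution of `Δ u = u ^ 3 - u` that is strictly increasing in one
coordinate direction and is a sum, or a product, of functions of the single coordinates depends on
that coordinate only.
-/

open Finset Function

namespace Vale.Agent.Results.P134.SeparableSolutions

/-- The sum of the pure second partial derivatives of `u` at `x`
(the Laplacian of `u` when `u` is twice continuously differentiable). -/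
noncomputable def lap {n : ℕ} (u : (Fin n → ℝ) → ℝ) (x : Fin n → ℝ) : ℝ :=
  ∑ i, deriv (deriv (fun t => u (update x i t))) (x i)

theorem sum_upd {n : ℕ} (φ : Fin n → ℝ → ℝ) (x : Fin n → ℝ) (i j : Fin n) (hij : i ≠ j)
    (a b : ℝ) :
    ∑ k, φ k (update (update x i a) j b k)
      = φ i a + φ j b + ∑ k ∈ (univ.erase j).erase i, φ k (x k) := by
  rw [← add_sum_erase univ _ (mem_univ j),
    ← add_sum_erase (univ.erase j) _ (mem_erase.2 ⟨hij, mem_univ i⟩)]
  rw [update_self, update_of_ne hij, update_self]
  have : ∑ k ∈ (univ.erase j).erase i, φ k (update (update x i a) j b k)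
      = ∑ k ∈ (univ.erase j).erase i, φ k (x k) := by
    refine sum_congr rfl (fun k hk => ?_)
    have h1 : k ≠ i := (mem_erase.1 hk).1
    have h2 : k ≠ j := (mem_erase.1 (mem_erase.1 hk).2).1
    rw [update_of_ne h2, update_of_ne h1]
  rw [this]; ring

theorem prod_upd {n : ℕ} (φ : Fin n → ℝ → ℝ) (x : Fin n → ℝ) (i j : Fin n) (hij : i ≠ j)
    (a b : ℝ) :
    ∏ k, φ k (update (update x i a) j b k)
      = φ i a * φ j b * ∏ k ∈ (univ.erase j).erase i, φ k (x k) := by
  rw [← mul_prod_erase univ _ (mem_univ j),
    ← mul_prod_erase (univ.erase j) _ (mem_erase.2 ⟨hij, mem_univ i⟩)]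
  rw [update_self, update_of_ne hij, update_self]
  have : ∏ k ∈ (univ.erase j).erase i, φ k (update (update x i a) j b k)
      = ∏ k ∈ (univ.erase j).erase i, φ k (x k) := by
    refine prod_congr rfl (fun k hk => ?_)
    have h1 : k ≠ i := (mem_erase.1 hk).1
    have h2 : k ≠ j := (mem_erase.1 (mem_erase.1 hk).2).1
    rw [update_of_ne h2, update_of_ne h1]
  rw [this]; ring

theorem sum_upd1 {n : ℕ} (φ : Fin n → ℝ → ℝ) (x : Fin n → ℝ) (i : Fin n) (t : ℝ) :
    ∑ k, φ k (update x i t k) = φ i t + ∑ k ∈ univ.erase i, φ k (x k) := by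
  rw [← add_sum_erase univ _ (mem_univ i), update_self]
  congr 1
  exact sum_congr rfl (fun k hk => by rw [update_of_ne (mem_erase.1 hk).1])

theorem prod_upd1 {n : ℕ} (φ : Fin n → ℝ → ℝ) (x : Fin n → ℝ) (i : Fin n) (t : ℝ) :
    ∏ k, φ k (update x i t k) = φ i t * ∏ k ∈ univ.erase i, φ k (x k) := by
  rw [← mul_prod_erase univ _ (mem_univ i), update_self]
  congr 1
  exact prod_congr rfl (fun k hk => by rw [update_of_ne (mem_erase.1 hk).1])

/-- the Laplacian of a sum of functions of one coordinate -/
theorem lap_sum {n : ℕ} (f : Fin n → ℝ → ℝ) (u : (Fin n → ℝ) → ℝ)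
    (hu : ∀ x, u x = ∑ i, f i (x i)) (x : Fin n → ℝ) :
    lap u x = ∑ i, deriv (deriv (f i)) (x i) := by
  unfold lap
  refine sum_congr rfl (fun i _ => ?_)
  have h1 : (fun t => u (update x i t)) = fun t => f i t + ∑ k ∈ univ.erase i, f k (x k) := by
    funext t; rw [hu, sum_upd1]
  have h2 : deriv (fun t => f i t + ∑ k ∈ univ.erase i, f k (x k)) = deriv (f i) := by
    funext t; exact deriv_add_const _
  rw [h1, h2]

/-- the Laplacian of a product of functions of one coordinate -/
theorem lap_prod {n : ℕ} (g : Fin n → ℝ → ℝ) (u : (Fin n → ℝ) → ℝ)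
    (hu : ∀ x, u x = ∏ i, g i (x i)) (x : Fin n → ℝ) :
    lap u x = ∑ i, deriv (deriv (g i)) (x i) * ∏ k ∈ univ.erase i, g k (x k) := by
  unfold lap
  refine sum_congr rfl (fun i _ => ?_)
  have h1 : (fun t => u (update x i t)) = fun t => g i t * ∏ k ∈ univ.erase i, g k (x k) := by
    funext t; rw [hu, prod_upd1]
  have h2 : deriv (fun t => g i t * ∏ k ∈ univ.erase i, g k (x k))
      = fun t => deriv (g i) t * ∏ k ∈ univ.erase i, g k (x k) := by
    funext t; exact deriv_mul_const_field _
  rw [h1, h2, deriv_mul_const_field]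

theorem additive_case {n : ℕ} (j : Fin n) (u : (Fin n → ℝ) → ℝ)
    (hAC : ∀ x, lap u x = u x ^ 3 - u x)
    (hmono : ∀ x, StrictMono fun t => u (update x j t))
    (f : Fin n → ℝ → ℝ) (hu : ∀ x, u x = ∑ i, f i (x i)) :
    ∃ h : ℝ → ℝ, ∀ x, u x = h (x j) := by
  have hq : StrictMono (f j) := by
    intro s t hst
    have := hmono 0 hst
    simp only [hu, sum_upd1] at this
    linarith
  have hconst : ∀ i, i ≠ j → ∀ a a', f i a = f i a' := by
    intro i hij a a'
    by_contra hne
    set F : Fin n → ℝ → ℝ := fun k => deriv (deriv (f k)) with hF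
    set d := ∑ k ∈ (univ.erase j).erase i, f k ((0 : Fin n → ℝ) k) with hd
    set D := ∑ k ∈ (univ.erase j).erase i, F k ((0 : Fin n → ℝ) k) with hD
    have key : ∀ a b, F i a + F j b + D = (f i a + f j b + d) ^ 3 - (f i a + f j b + d) := by
      intro a b
      have h := hAC (update (update 0 i a) j b)
      rw [lap_sum f u hu, hu, sum_upd F 0 i j hij, sum_upd f 0 i j hij] at h
      exact h
    have rel : ∀ b b', b ≠ b' → f i a + f i a' + f j b + f j b' + 2 * d = 0 := by
      intro b b' hb
      have h1 := key a b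
      have h2 := key a' b
      have h3 := key a b'
      have h4 := key a' b'
      have hprod : (f i a - f i a') * (f j b - f j b')
          * (f i a + f i a' + f j b + f j b' + 2 * d) = 0 := by
        linear_combination (1 / 3 : ℝ) * (h2 + h3 - h1 - h4)
      have hA : f i a - f i a' ≠ 0 := sub_ne_zero.2 hne
      have hB : f j b - f j b' ≠ 0 := sub_ne_zero.2 (fun h => hb (hq.injective h))
      rcases mul_eq_zero.1 hprod with h | h
      · exact absurd h (mul_ne_zero hA hB)
      · exact h
    have r1 := rel 1 0 one_ne_zero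
    have r2 := rel 2 0 two_ne_zero
    have : f j 1 = f j 2 := by linarith
    have h12 := hq (show (1 : ℝ) < 2 by norm_num)
    linarith
  refine ⟨fun t => f j t + ∑ k ∈ univ.erase j, f k 0, fun x => ?_⟩
  rw [hu, ← add_sum_erase univ _ (mem_univ j)]
  congr 1
  exact sum_congr rfl (fun k hk => hconst k (mem_erase.1 hk).1 _ _)

theorem multiplicative_case {n : ℕ} (j : Fin n) (u : (Fin n → ℝ) → ℝ)
    (hAC : ∀ x, lap u x = u x ^ 3 - u x)
    (hmono : ∀ x, StrictMono fun t => u (update x j t))
    (g : Fin n → ℝ → ℝ) (hu : ∀ x, u x = ∏ i, g i (x i)) :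
    ∃ h : ℝ → ℝ, ∀ x, u x = h (x j) := by
  -- the factors other than `g j` never vanish
  have hnz : ∀ i, i ≠ j → ∀ c, g i c ≠ 0 := by
    intro i hij c hc
    have := hmono (update 0 i c) (show (0 : ℝ) < 1 by norm_num)
    simp only [hu, prod_upd g 0 i j hij, hc, zero_mul] at this
    exact lt_irrefl _ this
  have hconst : ∀ i, i ≠ j → ∀ a a', g i a = g i a' := by
    intro i hij a a'
    set φ : Fin n → ℝ → ℝ := fun k t => deriv (deriv (g k)) t / g k t with hφ
    set E := ∏ k ∈ (univ.erase j).erase i, g k ((0 : Fin n → ℝ) k) with hE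
    set D := ∑ k ∈ (univ.erase j).erase i, φ k ((0 : Fin n → ℝ) k) with hD
    have hE0 : E ≠ 0 := by
      refine prod_ne_zero_iff.2 (fun k hk => hnz k ?_ _)
      exact (mem_erase.1 (mem_erase.1 hk).2).1
    have hval : ∀ a b, u (update (update 0 i a) j b) = g i a * g j b * E := by
      intro a b; rw [hu, prod_upd g 0 i j hij]
    have hinc : ∀ a, StrictMono fun t => g i a * g j t * E := by
      intro a s t hst
      have := hmono (update 0 i a) hst
      simp only [hval] at this
      exact this
    have hQinj : Function.Injective (g j) := by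
      intro s t hst
      by_contra hne
      rcases lt_or_gt_of_ne hne with h | h
      · have := hinc a h; simp only [hst] at this; exact lt_irrefl _ this
      · have := hinc a h; simp only [hst] at this; exact lt_irrefl _ this
    have key : ∀ a b, g j b ≠ 0 → φ i a + φ j b + D = (g i a * g j b * E) ^ 2 - 1 := by
      intro a b hb
      set x := update (update (0 : Fin n → ℝ) i a) j b with hx
      have hall : ∀ k, g k (x k) ≠ 0 := by
        intro k
        by_cases hk : k = j
        · subst hk; rw [hx, update_self]; exact hb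
        · exact hnz k hk _
      have hux : u x ≠ 0 := by rw [hu]; exact prod_ne_zero_iff.2 (fun k _ => hall k)
      have h := hAC x
      have hl : lap u x = u x * ∑ k, φ k (x k) := by
        rw [lap_prod g u hu, mul_sum]
        refine sum_congr rfl (fun k _ => ?_)
        rw [hu, ← mul_prod_erase univ _ (mem_univ k)]
        have := hall k
        simp only [hφ]
        field_simp
      rw [hl] at h
      have h2 : ∑ k, φ k (x k) = u x ^ 2 - 1 := by
        have : u x * ∑ k, φ k (x k) = u x * (u x ^ 2 - 1) := by rw [h]; ring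
        exact mul_left_cancel₀ hux this
      rw [hx, sum_upd φ 0 i j hij, hval] at h2
      exact h2
    obtain ⟨t0, ht0⟩ : ∃ t0, ∀ t, t ≠ t0 → g j t ≠ 0 := by
      by_cases h : ∃ t, g j t = 0
      · obtain ⟨t0, h0⟩ := h
        exact ⟨t0, fun t ht hz => ht (hQinj (hz.trans h0.symm))⟩
      · exact ⟨0, fun t _ hz => h ⟨t, hz⟩⟩
    have hsq : g i a ^ 2 = g i a' ^ 2 := by
      by_contra hne
      have rel : ∀ b b', g j b ≠ 0 → g j b' ≠ 0 → g j b ^ 2 = g j b' ^ 2 := by
        intro b b' hb hb'
        have h1 := key a b hb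
        have h2 := key a' b hb
        have h3 := key a b' hb'
        have h4 := key a' b' hb'
        have hprod : (g i a ^ 2 - g i a' ^ 2) * (g j b ^ 2 - g j b' ^ 2) * E ^ 2 = 0 := by
          linear_combination h2 + h3 - h1 - h4
        have hA : g i a ^ 2 - g i a' ^ 2 ≠ 0 := sub_ne_zero.2 hne
        have hE2 : E ^ 2 ≠ 0 := pow_ne_zero 2 hE0
        rcases mul_eq_zero.1 hprod with h | h
        · rcases mul_eq_zero.1 h with h | h
          · exact absurd h hA
          · linarith
        · exact absurd h hE2
      have n1 : g j (t0 + 1) ≠ 0 := ht0 _ (by intro h; linarith)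
      have n2 : g j (t0 + 2) ≠ 0 := ht0 _ (by intro h; linarith)
      have n3 : g j (t0 + 3) ≠ 0 := ht0 _ (by intro h; linarith)
      have e12 := rel _ _ n1 n2
      have e13 := rel _ _ n1 n3
      have d12 : g j (t0 + 1) ≠ g j (t0 + 2) := fun h => by
        have := hQinj h; linarith
      have d13 : g j (t0 + 1) ≠ g j (t0 + 3) := fun h => by
        have := hQinj h; linarith
      have d23 : g j (t0 + 2) ≠ g j (t0 + 3) := fun h => by
        have := hQinj h; linarith
      have s12 : g j (t0 + 1) = -g j (t0 + 2) := by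
        rcases sq_eq_sq_iff_eq_or_eq_neg.1 e12 with h | h
        · exact absurd h d12
        · exact h
      have s13 : g j (t0 + 1) = -g j (t0 + 3) := by
        rcases sq_eq_sq_iff_eq_or_eq_neg.1 e13 with h | h
        · exact absurd h d13
        · exact h
      exact d23 (by linarith)
    rcases sq_eq_sq_iff_eq_or_eq_neg.1 hsq with h | h
    · exact h
    · exfalso
      have h1 := hinc a (show (0 : ℝ) < 1 by norm_num)
      have h2 := hinc a' (show (0 : ℝ) < 1 by norm_num)
      simp only [h] at h1
      nlinarith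
  refine ⟨fun t => g j t * ∏ k ∈ univ.erase j, g k 0, fun x => ?_⟩
  rw [hu, ← mul_prod_erase univ _ (mem_univ j)]
  congr 1
  exact prod_congr rfl (fun k hk => hconst k (mem_erase.1 hk).1 _ _)

/-- In every dimension `n`, let `u` solve the Allen-Cahn equation on `ℝ^n` and be strictly
increasing in the `j`-th coordinate.  If `u` is a sum of functions of the single coordinates, or a
product of such functions, then `u` depends on the `j`-th coordinate only. -/
theorem result (n : ℕ) (j : Fin n) (u : (Fin n → ℝ) → ℝ)
    (hAC : ∀ x, lap u x = u x ^ 3 - u x)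
    (hmono : ∀ x, StrictMono fun t => u (update x j t))
    (hsep : (∃ f : Fin n → ℝ → ℝ, ∀ x, u x = ∑ i, f i (x i)) ∨
      (∃ g : Fin n → ℝ → ℝ, ∀ x, u x = ∏ i, g i (x i))) :
    ∃ h : ℝ → ℝ, ∀ x, u x = h (x j) := by
  rcases hsep with ⟨f, hf⟩ | ⟨g, hg⟩
  · exact additive_case j u hAC hmono f hf
  · exact multiplicative_case j u hAC hmono g hg

end Vale.Agent.Results.P134.SeparableSolutions
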